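import Crest.Agent.Helper4.S0010.PL

/-!
# S0010 (row 9), WP-AS PartA (A1): the exponent `m` of the line lemma is a global constant

Abstract form: `FK`, `FL` are subfields of `K`, `L` (the `p`-th powers in the application),
`adj x` a subfield of `L` containing `FL` (`L^p(x)` in the application), `th : K → L` a lift.
-/

set_option autoImplicit false

namespace Crest.Agent.Helper4.S0010

variable {K L : Type*} [Field K] [Field L]

/-- `a = e * b` for some nonzero `e` in the subfield `F`. -/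
def RelF (F : Subfield L) (a b : L) : Prop := ∃ e ∈ F, e ≠ 0 ∧ a = e * b

theorem RelF.symm {F : Subfield L} {a b : L} (h : RelF F a b) : RelF F b a := by
  obtain ⟨e, he, he0, rfl⟩ := h
  exact ⟨e⁻¹, F.inv_mem he, inv_ne_zero he0, by field_simp⟩

theorem RelF.trans {F : Subfield L} {a b c : L} (h : RelF F a b) (h' : RelF F b c) : RelF F a c := by
  obtain ⟨e, he, he0, rfl⟩ := h
  obtain ⟨e', he', he0', rfl⟩ := h'
  exact ⟨e * e', F.mul_mem he he', mul_ne_zero he0 he0', by ring⟩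

/-- The conclusion of the line lemma for the pair `(f, g)` with exponent `m`. -/
def LLData (FK : Subfield K) (FL : Subfield L) (th : K → L) (f g : K) (m : ℕ) : Prop :=
  ∃ (P Q : L) (lam : K → L), (∀ c ∈ FK, lam c ∈ FL) ∧ lam 0 = 0 ∧ lam 1 = 1 ∧
    (∀ c ∈ FK, RelF FL (th (f + c)) ((P + lam c) ^ m)) ∧
    (∀ c ∈ FK, RelF FL (th (g - c)) ((Q - lam c) ^ m)) ∧
    RelF FL (th (f + g)) ((P + Q) ^ m)

section

variable (p : ℕ) [Fact p.Prime] [CharP L p]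
variable (FK : Subfield K) (FL : Subfield L) (th : K → L)

/-- Two presentations of the same line `{th (f + c)}` have the same exponent. -/
theorem llData_exponent_unique
    (hFL : ∀ e ∈ FL, ∀ D : Derivation ℤ L L, D e = 0)
    (Dex : ∀ t : L, t ∉ FL → ∃ D : Derivation ℤ L L, D t = 1)
    {f g g' : K} {m m' : ℕ} (hf : th f ∉ FL)
    (hm : 0 < m) (hmp : m < p) (hm' : 0 < m') (hmp' : m' < p)
    (h : LLData FK FL th f g m) (h' : LLData FK FL th f g' m') : m = m' := by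
  obtain ⟨P, Q, lam, hlam, hlam0, hlam1, hP, -, -⟩ := h
  obtain ⟨P', Q', lam', hlam', hlam0', hlam1', hP', -, -⟩ := h'
  have r0 : RelF FL (th f) (P ^ m) := by
    have := hP 0 FK.zero_mem
    rwa [add_zero, hlam0, add_zero] at this
  have r0' : RelF FL (th f) (P' ^ m') := by
    have := hP' 0 FK.zero_mem
    rwa [add_zero, hlam0', add_zero] at this
  have r1 : RelF FL (th (f + 1)) ((P + 1) ^ m) := by
    have := hP 1 FK.one_mem
    rwa [hlam1] at this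
  have r1' : RelF FL (th (f + 1)) ((P' + 1) ^ m') := by
    have := hP' 1 FK.one_mem
    rwa [hlam1'] at this
  have hPF : P ∉ FL := by
    intro hPF
    obtain ⟨e, he, -, hrel⟩ := r0
    exact hf (hrel ▸ FL.mul_mem he (FL.pow_mem hPF m))
  obtain ⟨D, hDP⟩ := Dex P hPF
  obtain ⟨e0, he0, -, hrel0⟩ := r0.symm.trans r0'
  obtain ⟨e1, he1, -, hrel1⟩ := r1.symm.trans r1'
  exact (pl_main p D hDP hm hmp hm' hmp' (hFL e0 he0 D) hrel0 D.map_one_eq_zero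
    D.map_one_eq_zero (hFL e1 he1 D) one_ne_zero hrel1).1

/-- The exponent of `(f, g)` equals the exponent of `(g, f)`. -/
theorem llData_exponent_swap
    (hFL : ∀ e ∈ FL, ∀ D : Derivation ℤ L L, D e = 0)
    (Dex : ∀ t : L, t ∉ FL → ∃ D : Derivation ℤ L L, D t = 1)
    {f g : K} {m m' : ℕ} (hg : th g ∉ FL)
    (hm : 0 < m) (hmp : m < p) (hm' : 0 < m') (hmp' : m' < p)
    (h : LLData FK FL th f g m) (h' : LLData FK FL th g f m') : m = m' := by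
  obtain ⟨P, Q, lam, hlam, hlam0, hlam1, -, hQ, -⟩ := h
  obtain ⟨P', Q', lam', hlam', hlam0', hlam1', hP', -, -⟩ := h'
  have r0 : RelF FL (th g) (Q ^ m) := by
    have := hQ 0 FK.zero_mem
    rwa [sub_zero, hlam0, sub_zero] at this
  have r0' : RelF FL (th g) (P' ^ m') := by
    have := hP' 0 FK.zero_mem
    rwa [add_zero, hlam0', add_zero] at this
  have r1 : RelF FL (th (g - 1)) ((Q + (-1)) ^ m) := by
    have := hQ 1 FK.one_mem
    rwa [hlam1, sub_eq_add_neg Q 1] at this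
  have r1' : RelF FL (th (g - 1)) ((P' + lam' (-1)) ^ m') := by
    have := hP' (-1) (FK.neg_mem FK.one_mem)
    rwa [← sub_eq_add_neg] at this
  have hQF : Q ∉ FL := by
    intro hQF
    obtain ⟨e, he, -, hrel⟩ := r0
    exact hg (hrel ▸ FL.mul_mem he (FL.pow_mem hQF m))
  obtain ⟨D, hDQ⟩ := Dex Q hQF
  obtain ⟨e0, he0, -, hrel0⟩ := r0.symm.trans r0'
  obtain ⟨e1, he1, -, hrel1⟩ := r1.symm.trans r1'
  have hD1 : D (-1 : L) = 0 := by rw [D.map_neg, D.map_one_eq_zero, neg_zero]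
  exact (pl_main p D hDQ hm hmp hm' hmp' (hFL e0 he0 D) hrel0 hD1
    (hFL _ (hlam' _ (FK.neg_mem FK.one_mem)) D) (hFL e1 he1 D) (neg_ne_zero.2 one_ne_zero) hrel1).1

/-- **A1**, general form: the exponent in the line lemma can be chosen globally.
`Body f g m` is any shape of the line-lemma conclusion that implies `LLData`. -/
theorem exists_global_exponent_of_body (adj : L → Subfield L)
    (hadj : ∀ x, FL ≤ adj x)
    (hFL : ∀ e ∈ FL, ∀ D : Derivation ℤ L L, D e = 0)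
    (Dex : ∀ t : L, t ∉ FL → ∃ D : Derivation ℤ L L, D t = 1)
    (EX : ∀ x x' : L, x' ∈ adj x → x' ∉ FL → x ∈ adj x')
    (two : ∀ x x' : L, ∃ y, y ∉ adj x ∧ y ∉ adj x')
    (T4 : ∀ y : L, y ≠ 0 → ∃ g : K, g ≠ 0 ∧ RelF FL (th g) y)
    (Body : K → K → ℕ → Prop)
    (hBody : ∀ f g m, Body f g m → LLData FK FL th f g m)
    (LL : ∀ f g : K, f ≠ 0 → g ≠ 0 → th f ∉ FL → th g ∉ adj (th f) →
      ∃ m, 0 < m ∧ m < p ∧ Body f g m) :
    ∃ m, 0 < m ∧ m < p ∧ ∀ f g : K, f ≠ 0 → g ≠ 0 → th f ∉ FL → th g ∉ adj (th f) →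
      Body f g m := by
  have hp : p.Prime := Fact.out
  by_cases hex : ∃ f₀ g₀ : K, f₀ ≠ 0 ∧ g₀ ≠ 0 ∧ th f₀ ∉ FL ∧ th g₀ ∉ adj (th f₀)
  swap
  · refine ⟨1, one_pos, hp.one_lt, ?_⟩
    intro f g hf hg hfF hgA
    exact absurd ⟨f, g, hf, hg, hfF, hgA⟩ hex
  obtain ⟨f₀, g₀, hf₀, hg₀, hf₀F, hg₀A⟩ := hex
  obtain ⟨m₀, hm₀, hm₀p, hd₀⟩ := LL f₀ g₀ hf₀ hg₀ hf₀F hg₀A
  refine ⟨m₀, hm₀, hm₀p, ?_⟩
  intro f g hf hg hfF hgA
  obtain ⟨m, hm, hmp, hd⟩ := LL f g hf hg hfF hgA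
  -- a common partner of `f` and `f₀`
  obtain ⟨y, hy, hy₀⟩ := two (th f) (th f₀)
  have hy0 : y ≠ 0 := by
    rintro rfl
    exact hy (adj (th f)).zero_mem
  obtain ⟨s, hs, hrel⟩ := T4 y hy0
  obtain ⟨e, he, he0, hse⟩ := hrel
  -- `th s ∉ adj x` whenever `y ∉ adj x`
  have key : ∀ x : L, y ∉ adj x → th s ∉ adj x := by
    intro x hyx hsx
    apply hyx
    have : y = e⁻¹ * th s := by rw [hse]; field_simp
    rw [this]
    exact (adj x).mul_mem ((adj x).inv_mem (hadj x he)) hsx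
  have hsA : th s ∉ adj (th f) := key _ hy
  have hsA₀ : th s ∉ adj (th f₀) := key _ hy₀
  have hsF : th s ∉ FL := fun h => hsA (hadj _ h)
  have hfs : th f ∉ adj (th s) := fun h => hsA (EX _ _ h hfF)
  have hf₀s : th f₀ ∉ adj (th s) := fun h => hsA₀ (EX _ _ h hf₀F)
  obtain ⟨m₁, hm₁, hm₁p, hd₁⟩ := LL f s hf hs hfF hsA
  obtain ⟨m₂, hm₂, hm₂p, hd₂⟩ := LL s f hs hf hsF hfs
  obtain ⟨m₃, hm₃, hm₃p, hd₃⟩ := LL s f₀ hs hf₀ hsF hf₀s
  obtain ⟨m₄, hm₄, hm₄p, hd₄⟩ := LL f₀ s hf₀ hs hf₀F hsA₀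
  have e1 : m = m₁ := llData_exponent_unique p FK FL th hFL Dex hfF hm hmp hm₁ hm₁p
    (hBody _ _ _ hd) (hBody _ _ _ hd₁)
  have e2 : m₁ = m₂ := llData_exponent_swap p FK FL th hFL Dex hsF hm₁ hm₁p hm₂ hm₂p
    (hBody _ _ _ hd₁) (hBody _ _ _ hd₂)
  have e3 : m₂ = m₃ := llData_exponent_unique p FK FL th hFL Dex hsF hm₂ hm₂p hm₃ hm₃p
    (hBody _ _ _ hd₂) (hBody _ _ _ hd₃)
  have e4 : m₄ = m₃ := llData_exponent_swap p FK FL th hFL Dex hsF hm₄ hm₄p hm₃ hm₃p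
    (hBody _ _ _ hd₄) (hBody _ _ _ hd₃)
  have e5 : m₄ = m₀ := llData_exponent_unique p FK FL th hFL Dex hf₀F hm₄ hm₄p hm₀ hm₀p
    (hBody _ _ _ hd₄) (hBody _ _ _ hd₀)
  have : m = m₀ := by rw [e1, e2, e3, ← e4, e5]
  rw [← this]
  exact hd

/-- **A1**: the exponent in the line lemma can be chosen globally (`Body = LLData`). -/
theorem exists_global_exponent (adj : L → Subfield L)
    (hadj : ∀ x, FL ≤ adj x)
    (hFL : ∀ e ∈ FL, ∀ D : Derivation ℤ L L, D e = 0)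
    (Dex : ∀ t : L, t ∉ FL → ∃ D : Derivation ℤ L L, D t = 1)
    (EX : ∀ x x' : L, x' ∈ adj x → x' ∉ FL → x ∈ adj x')
    (two : ∀ x x' : L, ∃ y, y ∉ adj x ∧ y ∉ adj x')
    (T4 : ∀ y : L, y ≠ 0 → ∃ g : K, g ≠ 0 ∧ RelF FL (th g) y)
    (LL : ∀ f g : K, f ≠ 0 → g ≠ 0 → th f ∉ FL → th g ∉ adj (th f) →
      ∃ m, 0 < m ∧ m < p ∧ LLData FK FL th f g m) :
    ∃ m, 0 < m ∧ m < p ∧ ∀ f g : K, f ≠ 0 → g ≠ 0 → th f ∉ FL → th g ∉ adj (th f) →
      LLData FK FL th f g m :=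
  exists_global_exponent_of_body p FK FL th adj hadj hFL Dex EX two T4
    (LLData FK FL th) (fun _ _ _ h => h) LL

end

end Crest.Agent.Helper4.S0010
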