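import Crest.Agent.Helper19.S0010.ASBasic
import Crest.Agent.Helper31.S0010.Deriv
import Crest.Agent.Helper4.S0010.GlobalM

/-!
# S0010 (row 9), block AS1 (insurance track): `LineData ⇒ NormLine`

Exactly the statement `Spec.LineData.exists_normLine` of helper19's `ASSpec.lean`:
the exponent `m` of the line lemma is one global constant, and `s u := t u ^ m'`
(`m * m' ≡ 1 [MOD p]`) satisfies the normalised hypotheses.
-/

set_option autoImplicit false

namespace Crest.Agent.Helper4.S0010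

open Crest.Agent.Helper19.S0010

variable {K L : Type*} [Field K] [Field L] {p : ℕ} [Fact p.Prime] [CharP K p] [CharP L p]

/-- `y ^ n ~ y` for every `y` (also `y = 0`) when `n ≡ 1 [MOD p]`. -/
theorem prel_pow_of_modEq_one' {n : ℕ} (hn : n ≡ 1 [MOD p]) (y : L) : PRel p (y ^ n) y := by
  rcases eq_or_ne y 0 with rfl | hy
  · have hn0 : n ≠ 0 := by
      rintro rfl
      have := (Nat.modEq_zero_iff_dvd.1 hn.symm)
      exact (Fact.out : p.Prime).one_lt.ne' (Nat.dvd_one.1 this)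
    rw [zero_pow hn0]
    exact PRel.refl 0
  · exact prel_pow_of_modEq_one hn hy

/-- If `x ^ m' ∈ S` for a subfield `S ⊇ L^p` and `m * m' ≡ 1 [MOD p]` then `x ∈ S`. -/
theorem mem_of_pow_mem {S : Subfield L} (hS : pPow L p ≤ S) {m m' : ℕ}
    (hmm : m * m' ≡ 1 [MOD p]) {x : L} (h : x ^ m' ∈ S) : x ∈ S := by
  have h1 : x ^ (m * m') ∈ S := by
    rw [mul_comm, pow_mul]; exact S.pow_mem h m
  exact ((prel_pow_of_modEq_one' hmm x).mem_subfield_iff hS).1 h1

/-- The un-normalised conclusion of the line lemma (the `line` field of `LineData`), together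
with the genericity facts needed to normalise it. -/
def LineBody (p : ℕ) [Fact p.Prime] [CharP K p] [CharP L p] (t : K → L) (f g : K) (m : ℕ) : Prop :=
  f ≠ 0 ∧ t f ∉ pPow L p ∧
    ∃ (P Q : L) (lam : K → L),
      (∀ c ∈ pPow K p, lam c ∈ pPow L p) ∧
      (∀ c ∈ pPow K p, PRel p (t (f + c)) ((P + lam c) ^ m) ∧
        PRel p (t (g - c)) ((Q - lam c) ^ m)) ∧
      PRel p (t (f + g)) ((P + Q) ^ m)

/-- Injectivity of the class map, in the form needed: `t (f + 1) ~ t f` forces `f ∈ K^p`. -/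
theorem lineData_mem_pPow_of_prel_add_one {t : K → L} (h : LineData p t) {f : K} (hf : f ≠ 0)
    (hf1 : f + 1 ≠ 0) (hrel : PRel p (t (f + 1)) (t f)) : f ∈ pPow K p := by
  -- `t ((f+1)/f) ~ 1`
  have hq : (f + 1) / f ≠ 0 := div_ne_zero hf1 hf
  have h1 : PRel p (t ((f + 1) / f * f)) (t ((f + 1) / f) * t f) := h.mul _ _ hq hf
  rw [div_mul_cancel₀ _ hf] at h1
  have h2 : PRel p (t ((f + 1) / f) * t f) (t f) := h1.symm.trans hrel
  obtain ⟨e, he, he0, h3⟩ := h2
  have htf : t f ≠ 0 := h.ne_zero f hf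
  have h4 : t ((f + 1) / f) = e := mul_right_cancel₀ htf h3
  have h5 : (f + 1) / f ∈ pPow K p := (h.pow_iff _ hq).1 (h4 ▸ he)
  -- `f = 1 / ((f+1)/f - 1)`
  have h6 : f = ((f + 1) / f - 1)⁻¹ := by
    field_simp
    ring
  rw [h6]
  exact (pPow K p).inv_mem ((pPow K p).sub_mem h5 (pPow K p).one_mem)

/-- Normalisation `lam 0 = 0`, `lam 1 = 1` of the line data. -/
theorem lineData_llData_of_lineBody {t : K → L} (h : LineData p t) {f g : K} {m : ℕ}
    (hb : LineBody p t f g m) : LLData (pPow K p) (pPow L p) t f g m := by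
  obtain ⟨hf, hfF, P, Q, lam, hlam, hrel, hsum⟩ := hb
  have h0 := hrel 0 (pPow K p).zero_mem
  have h1 := hrel 1 (pPow K p).one_mem
  rw [add_zero] at h0
  set κ : L := lam 1 - lam 0 with hκ
  have hκF : κ ∈ pPow L p :=
    (pPow L p).sub_mem (hlam 1 (pPow K p).one_mem) (hlam 0 (pPow K p).zero_mem)
  have hκ0 : κ ≠ 0 := by
    intro hk
    have hl : lam 1 = lam 0 := sub_eq_zero.1 hk
    have hf1 : f + 1 ≠ 0 := by
      intro hf1
      have hfm : f = -1 := eq_neg_of_add_eq_zero_left hf1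
      have : f ∈ pPow K p := hfm ▸ (pPow K p).neg_mem (pPow K p).one_mem
      exact hfF ((h.pow_iff f hf).2 this)
    have hr : PRel p (t (f + 1)) (t f) := by
      have := h1.1
      rw [hl] at this
      exact this.trans h0.1.symm
    exact hfF ((h.pow_iff f hf).2 (lineData_mem_pPow_of_prel_add_one h hf hf1 hr))
  have hκm : ∀ n : ℕ, κ ^ n ∈ pPow L p ∧ κ ^ n ≠ 0 := fun n =>
    ⟨(pPow L p).pow_mem hκF n, pow_ne_zero n hκ0⟩
  refine ⟨(P + lam 0) / κ, (Q - lam 0) / κ, fun c => (lam c - lam 0) / κ, ?_, ?_, ?_, ?_, ?_, ?_⟩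
  · intro c hc
    exact (pPow L p).div_mem ((pPow L p).sub_mem (hlam c hc) (hlam 0 (pPow K p).zero_mem)) hκF
  · simp
  · exact div_self hκ0
  · intro c hc
    obtain ⟨e, he, he0, hre⟩ := (hrel c hc).1
    refine ⟨e * κ ^ m, (pPow L p).mul_mem he (hκm m).1, mul_ne_zero he0 (hκm m).2, ?_⟩
    have : (P + lam 0) / κ + (lam c - lam 0) / κ = (P + lam c) / κ := by ring
    rw [this, hre, div_pow]
    field_simp
  · intro c hc
    obtain ⟨e, he, he0, hre⟩ := (hrel c hc).2
    refine ⟨e * κ ^ m, (pPow L p).mul_mem he (hκm m).1, mul_ne_zero he0 (hκm m).2, ?_⟩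
    have : (Q - lam 0) / κ - (lam c - lam 0) / κ = (Q - lam c) / κ := by ring
    rw [this, hre, div_pow]
    field_simp
  · obtain ⟨e, he, he0, hre⟩ := hsum
    refine ⟨e * κ ^ m, (pPow L p).mul_mem he (hκm m).1, mul_ne_zero he0 (hκm m).2, ?_⟩
    have : (P + lam 0) / κ + (Q - lam 0) / κ = (P + Q) / κ := by ring
    rw [this, hre, div_pow]
    field_simp

/-- `L` is not the union of two subfields `L^p(x)`, `L^p(x')`. -/
theorem lineData_exists_notMem_two {t : K → L} (h : LineData p t) (x x' : L) :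
    ∃ y : L, y ∉ pAdj p x ∧ y ∉ pAdj p x' := by
  have big : ∀ z : L, ∃ y : L, y ∉ pAdj p z := by
    intro z
    by_cases hz : z ∈ pPow L p
    · obtain ⟨y, hy⟩ := h.nonperfect
      exact ⟨y, by rwa [pAdj_eq_pPow_of_mem p hz]⟩
    · exact h.partner z hz
  obtain ⟨y₁, h₁⟩ := big x
  obtain ⟨y₂, h₂⟩ := big x'
  by_cases h₁' : y₁ ∈ pAdj p x'
  · by_cases h₂' : y₂ ∈ pAdj p x
    · refine ⟨y₁ + y₂, fun hh => h₁ ?_, fun hh => h₂ ?_⟩
      · have : y₁ = (y₁ + y₂) - y₂ := by ring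
        rw [this]; exact (pAdj p x).sub_mem hh h₂'
      · have : y₂ = (y₁ + y₂) - y₁ := by ring
        rw [this]; exact (pAdj p x').sub_mem hh h₁'
    · exact ⟨y₂, h₂', h₂⟩
  · exact ⟨y₁, h₁, h₁'⟩

/-- **A1**: one global exponent for all generic pairs. -/
theorem lineData_exists_global_exponent {t : K → L} (h : LineData p t) :
    ∃ m : ℕ, 0 < m ∧ m < p ∧ ∀ f g : K, f ≠ 0 → g ≠ 0 → PIndep p (t f) (t g) →
      ∃ (P Q : L) (lam : K → L),
        (∀ c ∈ pPow K p, lam c ∈ pPow L p) ∧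
        (∀ c ∈ pPow K p, PRel p (t (f + c)) ((P + lam c) ^ m) ∧
          PRel p (t (g - c)) ((Q - lam c) ^ m)) ∧
        PRel p (t (f + g)) ((P + Q) ^ m) := by
  have hFL : ∀ e ∈ pPow L p, ∀ D : Derivation ℤ L L, D e = 0 := by
    intro e he D
    obtain ⟨b, rfl⟩ := (mem_pPow p).1 he
    exact Crest.Agent.Helper31.S0010.deriv_pow_p p D b
  have Dex : ∀ x : L, x ∉ pPow L p → ∃ D : Derivation ℤ L L, D x = 1 := by
    intro x hx
    obtain ⟨D, -, hD⟩ := Crest.Agent.Helper31.S0010.exists_derivation_of_notMem p (pPow L p)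
      (pow_mem_pPow p) hx
    exact ⟨D, hD⟩
  obtain ⟨m, hm, hmp, hall⟩ := exists_global_exponent_of_body p (pPow K p) (pPow L p) t
    (fun x => pAdj p x) (fun x => pPow_le_pAdj p x) hFL Dex
    (fun x x' hx' hx'F => exchange p hx' hx'F) (lineData_exists_notMem_two h) h.surj
    (LineBody p t) (fun f g m hb => lineData_llData_of_lineBody h hb)
    (fun f g hf hg hfF hgA => by
      obtain ⟨m, hm, hmp, hbody⟩ := h.line f g hf hg ⟨hfF, hgA⟩
      exact ⟨m, hm, hmp, hf, hfF, hbody⟩)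
  exact ⟨m, hm, hmp, fun f g hf hg hind => (hall f g hf hg hind.1 hind.2).2.2⟩

/-- **AS1** = `Spec.LineData.exists_normLine`. -/
theorem lineData_exists_normLine {t : K → L} (h : LineData p t) :
    ∃ m m' : ℕ, 0 < m ∧ m < p ∧ m * m' ≡ 1 [MOD p] ∧ NormLine p (fun u => t u ^ m') := by
  have hp : p.Prime := Fact.out
  obtain ⟨m, hm, hmp, hline⟩ := lineData_exists_global_exponent h
  have hcop : Nat.Coprime m p := (Nat.coprime_of_lt_prime hm.ne' hmp hp).symm
  obtain ⟨m', -, hm'⟩ := Nat.exists_mul_mod_eq_one_of_coprime hcop hp.one_lt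
  have hmm : m * m' ≡ 1 [MOD p] := by
    show m * m' % p = 1 % p
    rw [hm', Nat.mod_eq_of_lt hp.one_lt]
  refine ⟨m, m', hm, hmp, hmm, ?_⟩
  refine
    { ne_zero := fun u hu => pow_ne_zero _ (h.ne_zero u hu)
      mul := fun u v hu hv => by
        have := (h.mul u v hu hv).pow m'
        rwa [mul_pow] at this
      pow_iff := fun u hu => by
        constructor
        · intro hx
          exact (h.pow_iff u hu).1 (mem_of_pow_mem le_rfl hmm hx)
        · intro hx
          exact (pPow L p).pow_mem ((h.pow_iff u hu).2 hx) m'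
      surj := fun y hy => by
        obtain ⟨g, hg, hrel⟩ := h.surj (y ^ m) (pow_ne_zero m hy)
        refine ⟨g, hg, ?_⟩
        have h1 := hrel.pow m'
        rw [← pow_mul] at h1
        exact h1.trans (prel_pow_of_modEq_one' hmm y)
      partner := h.partner
      nonperfect := h.nonperfect
      line := ?_ }
  intro f g hf hg hind
  -- genericity for `t`
  have hfF : t f ∉ pPow L p := fun hx => hind.1 ((pPow L p).pow_mem hx m')
  have hAdj : pAdj p (t f ^ m') = pAdj p (t f) :=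
    pAdj_eq_of_mem p ((pAdj p (t f)).pow_mem (self_mem_pAdj p (t f)) m') hind.1
  have hgA : t g ∉ pAdj p (t f) := by
    intro hx
    apply hind.2
    show t g ^ m' ∈ pAdj p (t f ^ m')
    rw [hAdj]
    exact (pAdj p (t f)).pow_mem hx m'
  obtain ⟨P, Q, lam, hlam, hrel, hsum⟩ := hline f g hf hg ⟨hfF, hgA⟩
  have key : ∀ a b : L, PRel p a (b ^ m) → PRel p (a ^ m') b := by
    intro a b hab
    have h1 := hab.pow m'
    rw [← pow_mul] at h1
    exact h1.trans (prel_pow_of_modEq_one' hmm b)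
  exact ⟨P, Q, lam, hlam, fun c hc => ⟨key _ _ (hrel c hc).1, key _ _ (hrel c hc).2⟩,
    key _ _ hsum⟩

end Crest.Agent.Helper4.S0010
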