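import Crest.Agent.Helper75.S0010.PartB
import Crest.Agent.Helper31.S0010.Deriv
import Crest.Agent.Helper4.S0010.GlobalM

/-!
# S0010 (row 9), joint NORM (helper75's PartA), in helper75's `Ctx` shape

From the line lemma with pair-dependent exponent (`LLat p θ m f g`) for a lift `θ`:
one global exponent `m`; the normalised lift `θ' u := θ u ^ m'` (`m * m' ≡ 1 mod p`) satisfies
`Ctx p θ'`; and `Rel (θ' u) (α u) ⇒ Rel (θ u) (α u ^ m)`.  Together with `Ctx.exists_ringHom`
(PartB) this is the joint J2.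
-/

set_option autoImplicit false

namespace Crest.Agent.Helper4.S0010

open Crest.Agent.Helper75.S0010

variable {K L : Type*} [Field K] [Field L] {p : ℕ} [Fact p.Prime] [CharP K p] [CharP L p]

/-- `y ^ n ~ y` when `n % p = 1` (also for `y = 0`). -/
theorem rel_pow_of_mod_eq_one {n : ℕ} (hn : n % p = 1) (y : L) : Rel p (y ^ n) y := by
  have hn' : n = 1 + p * (n / p) := by
    have := Nat.mod_add_div n p
    omega
  rcases eq_or_ne y 0 with rfl | hy
  · have hn0 : n ≠ 0 := by omega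
    rw [zero_pow hn0]
    exact Rel.refl 0
  · refine ⟨(y ^ (n / p)) ^ p, pow_mem_pPow p _, pow_ne_zero _ (pow_ne_zero _ hy), ?_⟩
    rw [← pow_mul, mul_comm (n / p) p, ← pow_succ]
    congr 1
    omega

/-- The exchange property of `L^p(x)` (from helper31's `exchange`). -/
theorem exch_holds : Exch L p := by
  intro x x' hx' hx'F
  exact Crest.Agent.Helper31.S0010.exchange p (pPow L p) (pow_mem_pPow p) hx' hx'F

/-- **A1** in helper75's shapes: one global exponent. -/
theorem exists_global_exponent_llat {θ : K → L} (hlift : IsLift p θ) (hbig : Big L p)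
    (hll : ∀ f g : K, f ≠ 0 → g ≠ 0 → PIndep p (θ f) (θ g) →
      ∃ m, 0 < m ∧ m < p ∧ LLat p θ m f g) :
    ∃ m, 0 < m ∧ m < p ∧ ∀ f g : K, f ≠ 0 → g ≠ 0 → PIndep p (θ f) (θ g) → LLat p θ m f g := by
  have hFL : ∀ e ∈ pPow L p, ∀ D : Derivation ℤ L L, D e = 0 := by
    intro e he D
    obtain ⟨b, rfl⟩ := (mem_pPow p).1 he
    exact Crest.Agent.Helper31.S0010.deriv_pow_p p D b
  have Dex : ∀ x : L, x ∉ pPow L p → ∃ D : Derivation ℤ L L, D x = 1 := by
    intro x hx
    obtain ⟨D, -, hD⟩ := Crest.Agent.Helper31.S0010.exists_derivation_of_notMem p (pPow L p)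
      (pow_mem_pPow p) hx
    exact ⟨D, hD⟩
  obtain ⟨m, hm, hmp, hall⟩ := exists_global_exponent_of_body p (pPow K p) (pPow L p) θ
    (fun x => pAdj p x) (fun x => pPow_le_pAdj p x) hFL Dex
    (exch_holds (L := L) (p := p)) (exists_notMem_two hbig) hlift.surj
    (fun f g m => LLat p θ m f g)
    (fun f g m hb => by
      obtain ⟨P, Q, lam, hlam, h0, h1, hc⟩ := hb
      exact ⟨P, Q, lam, hlam, h0, h1, fun c hcF => (hc c hcF).1, fun c hcF => (hc c hcF).2.1,
        (hc 0 (pPow K p).zero_mem).2.2⟩)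
    (fun f g hf hg hfF hgA => hll f g hf hg ⟨hfF, hgA⟩)
  exact ⟨m, hm, hmp, fun f g hf hg hind => hall f g hf hg hind.1 hind.2⟩

/-- **NORM**: global exponent, normalised lift satisfies `Ctx`, and the way back. -/
theorem exists_norm_ctx {θ : K → L} (hlift : IsLift p θ) (hbig : Big L p)
    (hll : ∀ f g : K, f ≠ 0 → g ≠ 0 → PIndep p (θ f) (θ g) →
      ∃ m, 0 < m ∧ m < p ∧ LLat p θ m f g) :
    ∃ m m' : ℕ, 0 < m ∧ m < p ∧ m * m' % p = 1 ∧ Ctx p (fun u => θ u ^ m') ∧
      ∀ α : K → L, (∀ u, u ≠ 0 → Rel p (θ u ^ m') (α u)) →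
        ∀ u, u ≠ 0 → Rel p (θ u) (α u ^ m) := by
  have hp : p.Prime := Fact.out
  obtain ⟨m, hm, hmp, hline⟩ := exists_global_exponent_llat hlift hbig hll
  have hcop : Nat.Coprime m p := (Nat.coprime_of_lt_prime hm.ne' hmp hp).symm
  obtain ⟨m', -, hmm⟩ := Nat.exists_mul_mod_eq_one_of_coprime hcop hp.one_lt
  have hexch : Exch L p := exch_holds
  -- `a ~ b ^ m ⇒ a ^ m' ~ b`
  have key : ∀ a b : L, Rel p a (b ^ m) → Rel p (a ^ m') b := by
    intro a b hab
    have h1 := hab.pow m'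
    rw [← pow_mul] at h1
    exact h1.trans (rel_pow_of_mod_eq_one hmm b)
  -- `a ^ m' ~ b ⇒ a ~ b ^ m`
  have back : ∀ a b : L, Rel p (a ^ m') b → Rel p a (b ^ m) := by
    intro a b hab
    have h1 := hab.pow m
    rw [← pow_mul, mul_comm m' m] at h1
    exact (rel_pow_of_mod_eq_one hmm a).symm.trans h1
  refine ⟨m, m', hm, hmp, hmm, ?_, fun α hα u hu => back _ _ (hα u hu)⟩
  refine
    { ne_zero := fun u hu => pow_ne_zero _ (hlift.ne_zero u hu)
      mul := fun u v hu hv => by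
        have := (hlift.mul u v hu hv).pow m'
        rwa [mul_pow] at this
      rel_iff := fun u v hu hv => by
        constructor
        · intro h
          have h1 : Rel p (θ u) ((θ v ^ m') ^ m) := back _ _ h
          rw [← pow_mul, mul_comm m' m] at h1
          exact (hlift.rel_iff u v hu hv).1 (h1.trans (rel_pow_of_mod_eq_one hmm (θ v)))
        · intro h
          exact ((hlift.rel_iff u v hu hv).2 h).pow m'
      surj := fun y hy => by
        obtain ⟨g, hg, hrel⟩ := hlift.surj (y ^ m) (pow_ne_zero m hy)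
        exact ⟨g, hg, key _ _ hrel⟩
      exch := hexch
      big := hbig
      ll := ?_ }
  intro f g hf hg hind
  have hfF : θ f ∉ pPow L p := fun hx => hind.1 (pow_mem hx m')
  have hAdj : pAdj p (θ f ^ m') = pAdj p (θ f) :=
    pAdj_eq_of_mem hexch (pow_mem (self_mem_pAdj p (θ f)) m') hind.1
  have hgA : θ g ∉ pAdj p (θ f) := by
    intro hx
    apply hind.2
    show θ g ^ m' ∈ pAdj p (θ f ^ m')
    rw [hAdj]
    exact pow_mem hx m'
  obtain ⟨P, Q, lam, hlam, h0, h1, hc⟩ := hline f g hf hg ⟨hfF, hgA⟩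
  refine ⟨P, Q, lam, hlam, h0, h1, fun c hcF => ?_⟩
  obtain ⟨hA, hB, hC⟩ := hc c hcF
  simp only [pow_one]
  exact ⟨key _ _ hA, key _ _ hB, key _ _ hC⟩

/-- **J2** in helper75's shapes: NORM + PartB. -/
theorem exists_ringHom_of_llat {θ : K → L} (hlift : IsLift p θ) (hbig : Big L p)
    (hll : ∀ f g : K, f ≠ 0 → g ≠ 0 → PIndep p (θ f) (θ g) →
      ∃ m, 0 < m ∧ m < p ∧ LLat p θ m f g) :
    ∃ (α : K →+* L) (m : ℕ), 0 < m ∧ m < p ∧ ∀ u, u ≠ 0 → Rel p (θ u) (α u ^ m) := by
  obtain ⟨m, m', hm, hmp, -, hctx, hback⟩ := exists_norm_ctx hlift hbig hll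
  obtain ⟨α, hα⟩ := hctx.exists_ringHom
  exact ⟨α, m, hm, hmp, hback α hα⟩

end Crest.Agent.Helper4.S0010
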