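import Crest.Agent.Helper22.S0010.Glue
import Crest.Agent.Helper91.S0010.FTBridge
import Crest.Agent.Helper71.S0010.LLfRef
import Crest.Agent.Helper4.S0010.Norm

/-!
# S0010 (row 9), CHAIN (insurance copy): the theorem (E)

`IsCompatible Θ` + the frozen hypotheses ⊢
`∃ α : K →+* L, ∃ c : ZMod p, c ≠ 0 ∧ ∀ u : Kˣ, Θ (cls K p u) = c • cls L p (Units.map α u)`.

Chain: helper71's pure-field line lemma (`lineLemma`) ⇒ helper22's `LineLemmaAt` ⇒ helper22's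
`J1` (line lemma for `th Θ`) ⇒ `exists_ringHom_of_llat` (NORM + helper75's PartB) ⇒ helper22's `J3`.
-/

set_option autoImplicit false

namespace Crest.Agent.Helper4.S0010

open Crest.NumberTheoryR.MilnorK
open Crest.Agent.Helper31.S0010

variable {p : ℕ} [Fact p.Prime] {K L : Type*} [Field K] [Field L] [CharP K p] [CharP L p]

/-- **J2 in raw shapes** (helper31's `pPow`/`pAdj`/`PIndep`, relations written out):
from T1–T4, `L^p(x) ≠ L` and the line lemma with pair-dependent exponent to a ring homomorphism. -/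
theorem exists_ringHom_of_J1_raw (θ : K → L)
    (T1 : ∀ u : K, u ≠ 0 → θ u ≠ 0)
    (T2 : ∀ u v : K, u ≠ 0 → v ≠ 0 →
      ∃ e ∈ pPow (L := L) p, e ≠ 0 ∧ θ (u * v) = e * (θ u * θ v))
    (T3 : ∀ u v : K, u ≠ 0 → v ≠ 0 →
      ((∃ e ∈ pPow (L := L) p, e ≠ 0 ∧ θ u = e * θ v) ↔
        ∃ e ∈ pPow (L := K) p, e ≠ 0 ∧ u = e * v))
    (T4 : ∀ y : L, y ≠ 0 → ∃ g : K, g ≠ 0 ∧ ∃ e ∈ pPow (L := L) p, e ≠ 0 ∧ θ g = e * y)
    (hbig : ∀ x : L, ∃ y : L, y ∉ pAdj p x)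
    (J1 : ∀ f g : K, f ≠ 0 → g ≠ 0 → PIndep p (θ f) (θ g) →
      ∃ m : ℕ, 0 < m ∧ m < p ∧ ∃ (P Q : L) (lam : K → L),
        lam 0 = 0 ∧ lam 1 = 1 ∧ (∀ c ∈ pPow (L := K) p, lam c ∈ pPow (L := L) p) ∧
        ∀ c ∈ pPow (L := K) p,
          (∃ e ∈ pPow (L := L) p, e ≠ 0 ∧ θ (f + c) = e * (P + lam c) ^ m) ∧
          (∃ e ∈ pPow (L := L) p, e ≠ 0 ∧ θ (g - c) = e * (Q - lam c) ^ m) ∧
          (∃ e ∈ pPow (L := L) p, e ≠ 0 ∧ θ (f + g) = e * (P + Q) ^ m)) :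
    ∃ (α : K →+* L) (m : ℕ), 0 < m ∧ m < p ∧
      ∀ u : K, u ≠ 0 → ∃ e ∈ pPow (L := L) p, e ≠ 0 ∧ θ u = e * α u ^ m := by
  have hlift : Crest.Agent.Helper75.S0010.IsLift p θ := ⟨T1, T2, T3, T4⟩
  have hbig' : Crest.Agent.Helper75.S0010.Big L p := hbig
  exact exists_ringHom_of_llat hlift hbig' (fun f g hf hg hind => by
    obtain ⟨m, hm, hmp, P, Q, lam, h0, h1, hlam, hc⟩ := J1 f g hf hg hind
    exact ⟨m, hm, hmp, P, Q, lam, hlam, h0, h1, hc⟩)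

/-- helper71's line lemma gives helper22's `LineLemmaAt` for every infinite index type. -/
theorem lineLemmaAt_of_infinite {ι : Type*} [Infinite ι] (c₀ c₁ : ι) (hc : c₁ ≠ c₀) :
    Crest.Agent.Helper22.S0010.LineLemmaAt p L ι c₀ := by
  intro x y hxy φ γ h hh _ _ hφ hφ' hγ hγ' hJ hφi hγi
  obtain ⟨m, hm, hmp, P, Q, lam, hP, hP', hQ, hQ', hl0, -, hlam, hinj, h3, h4, h5, h6⟩ :=
    Crest.Agent.Helper71.S0010.lineLemma c₀ c₁ hc hxy φ γ h hh hφ hφ' hγ hγ' hJ hφi hγi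
  exact ⟨m, hm, hmp, P, Q, lam, hP, hP', hQ, hQ', hl0, hinj, hlam, h3, h4, h5, h6⟩

/-- helper22's `LineLemmaAt` at the index type `K^p` when `K^p` is infinite. -/
theorem lineLemmaAt_pPow (hinf : (pPow (L := K) p : Set K).Infinite) :
    Crest.Agent.Helper22.S0010.LineLemmaAt p L (↥(pPow (L := K) p)) 0 := by
  have : Infinite (↥(pPow (L := K) p)) := hinf.to_subtype
  exact lineLemmaAt_of_infinite (0 : ↥(pPow (L := K) p)) 1 one_ne_zero

/-- **(E)** from `K^p` infinite and `L^p(x) ≠ L`. -/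
theorem E_of_infinite_of_big {Θ : KOne K p ≃ₗ[ZMod p] KOne L p} (hΘ : IsCompatible Θ)
    (hinf : (pPow (L := K) p : Set K).Infinite)
    (hbig : ∀ x : L, ∃ y : L, y ∉ pAdj p x) :
    ∃ α : K →+* L, ∃ c : ZMod p, c ≠ 0 ∧
      ∀ u : Kˣ, Θ (cls K p u) = c • cls L p (Units.map α.toMonoidHom u) := by
  have hLL := lineLemmaAt_pPow (p := p) (K := K) (L := L) hinf
  obtain ⟨a, m, hm0, hmp, h⟩ := exists_ringHom_of_J1_raw (p := p)
    (Crest.Agent.Helper22.S0010.th Θ)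
    (fun u hu => Crest.Agent.Helper22.S0010.th_ne_zero Θ hu)
    (fun u v hu hv => Crest.Agent.Helper22.S0010.rel_th_mul Θ hu hv)
    (fun u v hu hv => Crest.Agent.Helper22.S0010.rel_th_iff Θ hu hv)
    (fun y hy => Crest.Agent.Helper22.S0010.exists_rel_th Θ hy)
    hbig
    (fun f g hf hg hfg => by
      obtain ⟨m, hm, hmp, P, Q, lam, -, -, -, -, h0, h1, hlam, -, hc⟩ :=
        Crest.Agent.Helper22.S0010.J1 hΘ hLL hf hg hfg
      exact ⟨m, hm, hmp, P, Q, lam, h0, h1, hlam, hc⟩)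
  exact Crest.Agent.Helper22.S0010.J3 Θ a m hm0 hmp h

/-- **(E)** with the frozen hypotheses: `k` algebraically closed in the source field (so `K^p` is
infinite); `L` finitely generated of transcendence degree `≥ 2` over the algebraically closed
`l` (so `L^p(x) ≠ L`). -/
theorem E_frozen (k : Subfield K) (l : Subfield L) [IsAlgClosed k] [IsAlgClosed l]
    (hL : ∃ s : Finset L, Subfield.closure ((l : Set L) ∪ (s : Set L)) = ⊤)
    (hL2 : 2 ≤ Algebra.trdeg l L)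
    (Θ : KOne K p ≃ₗ[ZMod p] KOne L p) (hΘ : IsCompatible Θ) :
    ∃ α : K →+* L, ∃ c : ZMod p, c ≠ 0 ∧
      ∀ u : Kˣ, Θ (cls K p u) = c • cls L p (Units.map α.toMonoidHom u) :=
  E_of_infinite_of_big hΘ (Crest.Agent.Helper91.S0010.pPow_infinite (p := p) k)
    (fun x => Crest.Agent.Helper91.S0010.exists_not_mem_pAdj (p := p) l hL hL2 x)

end Crest.Agent.Helper4.S0010
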