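import Mathlib

/-!
# S0010 (row 9), WP-AS PartA: the uniqueness lemma (PL), abstract form

`D` is a derivation of a field `L`.  If `(P + a)^m = e * (P' + a')^m'` with `D`-constants
`a, a', e` and `D P = 1`, then `m * (P' + a') = m' * D P' * (P + a)` (logarithmic derivative).
Two such relations (one with `a = a' = 0`, one with `a ≠ 0`) force `m = m'` (for `0 < m, m' < p`
in characteristic `p`), `P' = e * P`, `a' = e * a` with `e = D P'` a `D`-constant.
-/

set_option autoImplicit false

namespace Crest.Agent.Helper4.S0010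

variable {L : Type*} [Field L]

/-- Logarithmic-derivative step of (PL). -/
theorem pl_step (D : Derivation ℤ L L) {P P' a a' e : L} {m m' : ℕ}
    (hDP : D P = 1) (ha : D a = 0) (ha' : D a' = 0) (he : D e = 0) (hm' : 0 < m')
    (hrel : (P + a) ^ m = e * (P' + a') ^ m') :
    (m : L) * (P' + a') = (m' : L) * D P' * (P + a) := by
  set X := P + a with hX
  set Y := P' + a' with hY
  have hDX : D X = 1 := by rw [hX, D.map_add, hDP, ha, add_zero]
  have hDY : D Y = D P' := by rw [hY, D.map_add, ha', add_zero]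
  have hX0 : X ≠ 0 := by
    intro h
    rw [h, D.map_zero] at hDX
    exact zero_ne_one hDX
  have hXm : X ^ m ≠ 0 := pow_ne_zero _ hX0
  have he0 : e ≠ 0 := by
    intro h
    rw [h, zero_mul] at hrel
    exact hXm hrel
  have hY0 : Y ≠ 0 := by
    intro h
    rw [h, zero_pow hm'.ne', mul_zero] at hrel
    exact hXm hrel
  have hYm : Y ^ m' ≠ 0 := pow_ne_zero _ hY0
  -- differentiate
  have h1 : D (X ^ m) = (m : L) * X ^ (m - 1) := by
    rw [D.leibniz_pow, hDX]
    simp [nsmul_eq_mul]
  have h2 : D (e * Y ^ m') = e * ((m' : L) * Y ^ (m' - 1) * D P') := by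
    rw [D.leibniz, he, D.leibniz_pow, hDY]
    simp [nsmul_eq_mul, mul_assoc]
  have h3 : (m : L) * X ^ (m - 1) = e * ((m' : L) * Y ^ (m' - 1) * D P') := by
    rw [← h1, ← h2, hrel]
  have h4 : (m : L) * X ^ m = (m : L) * X ^ (m - 1) * X := by
    rcases Nat.eq_zero_or_pos m with h | h
    · subst h; simp
    · rw [mul_assoc, ← pow_succ, Nat.sub_add_cancel h]
  have h5 : Y ^ m' = Y ^ (m' - 1) * Y := by
    rw [← pow_succ, Nat.sub_add_cancel hm']
  have h6 : (e * Y ^ m') * ((m : L) * Y) = (e * Y ^ m') * ((m' : L) * D P' * X) := by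
    calc (e * Y ^ m') * ((m : L) * Y) = ((m : L) * X ^ m) * Y := by rw [← hrel]; ring
      _ = ((m : L) * X ^ (m - 1)) * X * Y := by rw [h4]
      _ = (e * ((m' : L) * Y ^ (m' - 1) * D P')) * X * Y := by rw [h3]
      _ = (e * (Y ^ (m' - 1) * Y)) * ((m' : L) * D P' * X) := by ring
      _ = (e * Y ^ m') * ((m' : L) * D P' * X) := by rw [← h5]
  exact mul_left_cancel₀ (mul_ne_zero he0 hYm) h6

/-- (PL), abstract form. -/
theorem pl_main (p : ℕ) [Fact p.Prime] [CharP L p] (D : Derivation ℤ L L)
    {P P' a a' e0 e1 : L} {m m' : ℕ}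
    (hDP : D P = 1) (hm : 0 < m) (hmp : m < p) (hm' : 0 < m') (hmp' : m' < p)
    (he0 : D e0 = 0) (hrel0 : P ^ m = e0 * P' ^ m')
    (ha : D a = 0) (ha' : D a' = 0) (he1 : D e1 = 0) (hane : a ≠ 0)
    (hrel1 : (P + a) ^ m = e1 * (P' + a') ^ m') :
    m = m' ∧ D (D P') = 0 ∧ P' = D P' * P ∧ a' = D P' * a := by
  have hp : p.Prime := Fact.out
  have hmL : (m : L) ≠ 0 := by
    intro h
    have := (CharP.cast_eq_zero_iff L p m).1 h
    exact absurd (Nat.le_of_dvd hm this) (not_le.2 hmp)
  have hmL' : (m' : L) ≠ 0 := by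
    intro h
    have := (CharP.cast_eq_zero_iff L p m').1 h
    exact absurd (Nat.le_of_dvd hm' this) (not_le.2 hmp')
  have s0 : (m : L) * P' = (m' : L) * D P' * P := by
    have := pl_step D (a := 0) (a' := 0) (e := e0) (m := m) (m' := m') hDP D.map_zero D.map_zero he0 hm'
      (by simpa using hrel0)
    simpa using this
  have s1 : (m : L) * (P' + a') = (m' : L) * D P' * (P + a) :=
    pl_step D hDP ha ha' he1 hm' hrel1
  have s2 : (m : L) * a' = (m' : L) * D P' * a := by
    have : (m : L) * (P' + a') - (m : L) * P' = (m' : L) * D P' * (P + a) - (m' : L) * D P' * P := by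
      rw [s1, s0]
    linear_combination this
  -- D (D P') = 0
  have hDD : D (D P') = 0 := by
    have h := congrArg D s2
    rw [D.leibniz, D.leibniz, D.leibniz, D.map_natCast, D.map_natCast, ha, ha'] at h
    simp only [smul_eq_mul, mul_zero, zero_add, add_zero] at h
    -- h : 0 = a * (m' * D (D P'))
    have h' : a * ((m' : L) * D (D P')) = 0 := by
      rw [← h]
    rcases mul_eq_zero.1 h' with h'' | h''
    · exact absurd h'' hane
    · rcases mul_eq_zero.1 h'' with h3 | h3
      · exact absurd h3 hmL'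
      · exact h3
  have hP0 : P ≠ 0 := by
    intro h
    rw [h, D.map_zero] at hDP
    exact zero_ne_one hDP
  have hP'0 : P' ≠ 0 := by
    intro h
    rw [h, zero_pow hm'.ne', mul_zero] at hrel0
    exact pow_ne_zero _ hP0 hrel0
  -- apply D to s0
  have s3 : (m : L) * D P' = (m' : L) * D P' := by
    have h := congrArg D s0
    rw [D.leibniz, D.leibniz, D.leibniz, D.map_natCast, D.map_natCast, hDD, hDP] at h
    simp only [smul_eq_mul, mul_zero, add_zero, mul_one] at h
    linear_combination h
  have hDP'0 : D P' ≠ 0 := by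
    intro h
    rw [h, mul_zero, zero_mul] at s0
    rcases mul_eq_zero.1 s0 with h1 | h1
    · exact hmL h1
    · exact hP'0 h1
  have hcast : (m : L) = (m' : L) := mul_right_cancel₀ hDP'0 s3
  have hmm : m = m' := by
    have := CharP.natCast_injOn_Iio L p (Set.mem_Iio.2 hmp) (Set.mem_Iio.2 hmp') hcast
    exact this
  refine ⟨hmm, hDD, ?_, ?_⟩
  · have : (m : L) * P' = (m : L) * (D P' * P) := by rw [s0, hcast]; ring
    exact mul_left_cancel₀ hmL this
  · have : (m : L) * a' = (m : L) * (D P' * a) := by rw [s2, hcast]; ring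
    exact mul_left_cancel₀ hmL this

end Crest.Agent.Helper4.S0010
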